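import Mathlib

/-!
# P139: full support of a random series with independent coefficients (abstract form)
-/

namespace Vale.Agent.Lib.P139

open MeasureTheory ProbabilityTheory Filter
open scoped ENNReal NNReal Topology

variable {ι Ω : Type*} [MeasurableSpace Ω] {P : Measure Ω} {g : ι → Ω → ℂ}

/-- the weighted square sum of the coefficients outside the finite set `F` -/
noncomputable def tailVar (g : ι → Ω → ℂ) (T : ι → ℝ≥0∞) (F : Finset ι) (ω : Ω) : ℝ≥0∞ :=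
  ∑' i : {x // x ∉ F}, T i * ENNReal.ofReal (‖g i ω‖ ^ 2)

theorem measurable_term (c : ℝ≥0∞) :
    Measurable (fun z : ℂ => c * ENNReal.ofReal (‖z‖ ^ 2)) := by
  fun_prop

theorem measurable_tsum_aux {Ω' ι' : Type*} [Countable ι'] [MeasurableSpace Ω']
    (f : ι' → Ω' → ℝ≥0∞) (h : ∀ i, Measurable (f i)) : Measurable (fun x => ∑' i, f i x) :=
  Measurable.ennreal_tsum h

theorem measurable_tailVar_sup [Countable ι] (T : ι → ℝ≥0∞) (F : Finset ι) :
    Measurable[⨆ i ∈ ((F : Set ι)ᶜ), MeasurableSpace.comap (g i) inferInstance]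
      (tailVar g T F) := by
  refine @measurable_tsum_aux Ω _ _
    (⨆ i ∈ ((F : Set ι)ᶜ), MeasurableSpace.comap (g i) inferInstance) _ (fun i => ?_)
  have h1 : Measurable[MeasurableSpace.comap (g i.1) inferInstance]
      (fun ω => T i * ENNReal.ofReal (‖g i ω‖ ^ 2)) :=
    (measurable_term (T i)).comp (comap_measurable (g i.1))
  refine h1.mono ?_ le_rfl
  exact le_iSup₂ (f := fun i (_ : i ∈ ((F : Set ι)ᶜ)) =>
    MeasurableSpace.comap (g i) inferInstance) i.1 (by simpa using i.2)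

theorem measurable_tailVar [Countable ι] (hm : ∀ i, Measurable (g i)) (T : ι → ℝ≥0∞)
    (F : Finset ι) : Measurable (tailVar g T F) :=
  Measurable.ennreal_tsum fun i => (measurable_term (T i)).comp (hm i)

theorem lintegral_tailVar_le [Countable ι] (hm : ∀ i, Measurable (g i))
    (hsq : ∀ i, ∫⁻ ω, ENNReal.ofReal (‖g i ω‖ ^ 2) ∂P ≤ 1) (T : ι → ℝ≥0∞) (F : Finset ι) :
    ∫⁻ ω, tailVar g T F ω ∂P ≤ ∑' i : {x // x ∉ F}, T i := by
  unfold tailVar
  rw [lintegral_tsum (f := fun (i : {x // x ∉ F}) ω => T i * ENNReal.ofReal (‖g i ω‖ ^ 2))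
    (fun i => ((measurable_term (T i)).comp (hm i)).aemeasurable)]
  refine ENNReal.tsum_le_tsum fun i => ?_
  have hmeas : Measurable (fun ω => ENNReal.ofReal (‖g i ω‖ ^ 2)) := by
    have := (measurable_term 1).comp (hm i)
    simpa [Function.comp_def] using this
  rw [lintegral_const_mul _ hmeas]
  calc T i * ∫⁻ ω, ENNReal.ofReal (‖g i ω‖ ^ 2) ∂P ≤ T i * 1 := by gcongr; exact hsq i
    _ = T i := mul_one _

theorem tail_pos [Countable ι] [IsProbabilityMeasure P] (hm : ∀ i, Measurable (g i))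
    (hsq : ∀ i, ∫⁻ ω, ENNReal.ofReal (‖g i ω‖ ^ 2) ∂P ≤ 1) (T : ι → ℝ≥0∞) (F : Finset ι)
    (e : ℝ≥0∞) (he0 : e ≠ 0) (het : e ≠ ⊤) (h : ∑' i : {x // x ∉ F}, T i < e) :
    0 < P {ω | tailVar g T F ω < e} := by
  by_contra h0
  have h0' : P {ω | tailVar g T F ω < e} = 0 := le_zero_iff.1 (not_lt.1 h0)
  have h1 : P {ω | e ≤ tailVar g T F ω} ≤ (∫⁻ ω, tailVar g T F ω ∂P) / e :=
    meas_ge_le_lintegral_div (measurable_tailVar hm T F).aemeasurable he0 het
  have h2 : (∫⁻ ω, tailVar g T F ω ∂P) / e < 1 := by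
    rw [ENNReal.div_lt_iff (Or.inl he0) (Or.inl het), one_mul]
    exact lt_of_le_of_lt (lintegral_tailVar_le hm hsq T F) h
  have h3 : (1 : ℝ≥0∞) ≤ P {ω | tailVar g T F ω < e} + P {ω | e ≤ tailVar g T F ω} := by
    rw [← measure_univ (μ := P)]
    refine (measure_mono ?_).trans (measure_union_le _ _)
    intro ω _
    exact lt_or_ge (tailVar g T F ω) e
  rw [h0', zero_add] at h3
  exact absurd (lt_of_le_of_lt (h3.trans h1) h2) (lt_irrefl _)

theorem fin_pos (hind : iIndepFun g P)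
    (hopen : ∀ i (U : Set ℂ), IsOpen U → U.Nonempty → 0 < P (g i ⁻¹' U))
    (F : Finset ι) (U : ι → Set ℂ) (hU : ∀ i, IsOpen (U i)) (hne : ∀ i, (U i).Nonempty) :
    0 < P (⋂ i ∈ F, g i ⁻¹' U i) := by
  rw [hind.measure_inter_preimage_eq_mul F (fun i _ => (hU i).measurableSet)]
  exact pos_iff_ne_zero.2 (Finset.prod_ne_zero_iff.2 fun i _ => (hopen i _ (hU i) (hne i)).ne')

theorem inter_eq [Countable ι] (hm : ∀ i, Measurable (g i)) (hind : iIndepFun g P)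
    (F : Finset ι) (U : ι → Set ℂ) (hU : ∀ i, MeasurableSet (U i)) (T : ι → ℝ≥0∞) (e : ℝ≥0∞) :
    P ((⋂ i ∈ F, g i ⁻¹' U i) ∩ {ω | tailVar g T F ω < e}) =
      P (⋂ i ∈ F, g i ⁻¹' U i) * P {ω | tailVar g T F ω < e} := by
  have hI := indep_iSup_of_disjoint (m := fun i => MeasurableSpace.comap (g i) inferInstance)
    (fun i => (hm i).comap_le) hind.iIndep (S := (F : Set ι)) (T := (F : Set ι)ᶜ)
    disjoint_compl_right
  refine (Indep_iff _ _ _).1 hI _ _ ?_ ?_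
  · refine @Finset.measurableSet_biInter _ _
      (⨆ i ∈ (F : Set ι), MeasurableSpace.comap (g i) inferInstance) _ F (fun i hi => ?_)
    exact le_iSup₂ (f := fun i (_ : i ∈ (F : Set ι)) =>
      MeasurableSpace.comap (g i) inferInstance) i (by simpa using hi) _ ⟨U i, hU i, rfl⟩
  · exact measurable_tailVar_sup T F measurableSet_Iio

theorem dist_le (a s : ℝ) (ha : 0 ≤ a) (v z : ℂ) :
    ENNReal.ofReal (a * ‖z * (s : ℂ) - v‖ ^ 2) ≤
      2 * (ENNReal.ofReal (a * s ^ 2) * ENNReal.ofReal (‖z‖ ^ 2))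
        + 2 * ENNReal.ofReal (a * ‖v‖ ^ 2) := by
  have h2 : (2 : ℝ≥0∞) = ENNReal.ofReal 2 := by simp
  rw [h2, ← ENNReal.ofReal_mul (by positivity), ← ENNReal.ofReal_mul (by positivity),
    ← ENNReal.ofReal_mul (by positivity), ← ENNReal.ofReal_add (by positivity) (by positivity)]
  refine ENNReal.ofReal_le_ofReal ?_
  have h1 : ‖z * (s : ℂ) - v‖ ≤ ‖z‖ * |s| + ‖v‖ := by
    calc ‖z * (s : ℂ) - v‖ ≤ ‖z * (s : ℂ)‖ + ‖v‖ := norm_sub_le _ _
      _ = ‖z‖ * |s| + ‖v‖ := by rw [norm_mul, Complex.norm_real, Real.norm_eq_abs]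
  have h3 : ‖z * (s : ℂ) - v‖ ^ 2 ≤ 2 * (s ^ 2 * ‖z‖ ^ 2) + 2 * ‖v‖ ^ 2 := by
    have h4 : ‖z * (s : ℂ) - v‖ ^ 2 ≤ (‖z‖ * |s| + ‖v‖) ^ 2 :=
      pow_le_pow_left₀ (norm_nonneg _) h1 2
    have h5 : (‖z‖ * |s|) ^ 2 = s ^ 2 * ‖z‖ ^ 2 := by rw [mul_pow, sq_abs]; ring
    nlinarith [sq_nonneg (‖z‖ * |s| - ‖v‖)]
  nlinarith

end Vale.Agent.Lib.P139
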