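import Mathlib

/-!
# P139: the Gaussian random Fourier series (definitions)

Functions on the torus `𝕋^d` are described by their Fourier coefficients `a : (Fin d → ℤ) → ℂ`.
-/

namespace Vale.Agent.Lib.P139

open MeasureTheory ProbabilityTheory
open scoped ENNReal NNReal

/-- The Japanese bracket `⟨n⟩ = (1 + |n|²)^{1/2}` of a frequency `n ∈ ℤ^d`. -/
noncomputable def jb {d : ℕ} (n : Fin d → ℤ) : ℝ := Real.sqrt (1 + ∑ i, (n i : ℝ) ^ 2)

/-- `X` is a standard complex Gaussian random variable: it is measurable, and its real and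
imaginary parts are independent centred real Gaussians of variance `1/2` (so `E |X|² = 1`). -/
def IsStdComplexGaussian {Ω : Type*} [MeasurableSpace Ω] (P : Measure Ω) (X : Ω → ℂ) : Prop :=
  Measurable X ∧
    P.map (fun ω => ((X ω).re, (X ω).im)) = (gaussianReal 0 (1 / 2)).prod (gaussianReal 0 (1 / 2))

/-- The squared `H^k(𝕋^d)` distance `∑_n ⟨n⟩^{2k} |a_n - b_n|²` (a number in `[0, ∞]`) of the
functions with Fourier coefficients `a` and `b`. -/
noncomputable def hkDistSq {d : ℕ} (k : ℝ) (a b : (Fin d → ℤ) → ℂ) : ℝ≥0∞ :=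
  ∑' n, ENNReal.ofReal (jb n ^ (2 * k) * ‖a n - b n‖ ^ 2)

/-- The Fourier coefficients `g_n(ω) ⟨n⟩^{-α}` of the random datum `u_0^ω`. -/
noncomputable def datum {d : ℕ} {Ω : Type*} (α : ℝ) (g : (Fin d → ℤ) → Ω → ℂ) (ω : Ω) :
    (Fin d → ℤ) → ℂ :=
  fun n => g n ω * ((jb n ^ (-α) : ℝ) : ℂ)

end Vale.Agent.Lib.P139
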