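import Vale.Agent.Lib.P139.Defs

namespace Vale.Agent.Lib.P139

open MeasureTheory ProbabilityTheory
open scoped ENNReal NNReal

/-- a family of independent standard complex Gaussians indexed by `ℤ^d` exists -/
theorem exists_model (d : ℕ) :
    ∃ (Ω : Type) (_ : MeasurableSpace Ω) (P : Measure Ω) (g : (Fin d → ℤ) → Ω → ℂ),
      IsProbabilityMeasure P ∧ (∀ n, IsStdComplexGaussian P (g n)) ∧ iIndepFun g P := by
  have hφ : Measurable (fun p : ℝ × ℝ => ((p.1 : ℂ) + (p.2 : ℂ) * Complex.I)) := by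
    fun_prop
  have hψ : Measurable (fun z : ℂ => (z.re, z.im)) :=
    Complex.measurable_re.prodMk Complex.measurable_im
  set ν : Measure (ℝ × ℝ) := (gaussianReal 0 (1 / 2)).prod (gaussianReal 0 (1 / 2)) with hν
  set μ : Measure ℂ := ν.map (fun p : ℝ × ℝ => ((p.1 : ℂ) + (p.2 : ℂ) * Complex.I)) with hμ
  have : IsProbabilityMeasure μ := Measure.isProbabilityMeasure_map hφ.aemeasurable
  obtain ⟨Ω, mΩ, P, X, hXm, hXl, hXi, hP⟩ := exists_iid (Fin d → ℤ) μ
  refine ⟨Ω, mΩ, P, X, hP, fun n => ⟨hXm n, ?_⟩, hXi⟩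
  have h1 : P.map (fun ω => ((X n ω).re, (X n ω).im))
      = (P.map (X n)).map (fun z : ℂ => (z.re, z.im)) := by
    rw [Measure.map_map hψ (hXm n)]
    rfl
  rw [h1, (hXl n).map_eq, hμ, Measure.map_map hψ hφ]
  have h2 : ((fun z : ℂ => (z.re, z.im)) ∘ fun p : ℝ × ℝ => ((p.1 : ℂ) + (p.2 : ℂ) * Complex.I))
      = id := by
    funext p
    simp
  rw [h2, Measure.map_id]

end Vale.Agent.Lib.P139
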