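import Vale.Agent.Lib.P139.Defs

namespace Vale.Agent.Lib.P139

open MeasureTheory ProbabilityTheory
open scoped ENNReal NNReal

lemma gaussianHalf_isOpenPos : (gaussianReal 0 (1 / 2)).IsOpenPosMeasure :=
  (gaussianReal_absolutelyContinuous' 0 (v := 1 / 2) (by norm_num)).isOpenPosMeasure

/-- a standard complex Gaussian charges every nonempty open subset of `ℂ` -/
theorem IsStdComplexGaussian.pos_of_isOpen {Ω : Type*} [MeasurableSpace Ω] {P : Measure Ω}
    {X : Ω → ℂ} (h : IsStdComplexGaussian P X) {U : Set ℂ} (hU : IsOpen U) (hne : U.Nonempty) :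
    0 < P (X ⁻¹' U) := by
  have := gaussianHalf_isOpenPos
  let φ : ℝ × ℝ → ℂ := fun p => ⟨p.1, p.2⟩
  have hφ : Continuous φ := Complex.equivRealProdCLM.symm.continuous
  let V : Set (ℝ × ℝ) := φ ⁻¹' U
  have hV : IsOpen V := hU.preimage hφ
  have hVne : V.Nonempty := by
    obtain ⟨z, hz⟩ := hne
    exact ⟨(z.re, z.im), by simpa [V, φ] using hz⟩
  have hmeas : Measurable (fun ω => ((X ω).re, (X ω).im)) :=
    (Complex.measurable_re.comp h.1).prodMk (Complex.measurable_im.comp h.1)
  have heq : X ⁻¹' U = (fun ω => ((X ω).re, (X ω).im)) ⁻¹' V := by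
    ext ω
    simp [V, φ]
  rw [heq, ← Measure.map_apply hmeas hV.measurableSet, h.2]
  exact hV.measure_pos _ hVne

end Vale.Agent.Lib.P139
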