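import Vale.Agent.Lib.P139.Defs

namespace Vale.Agent.Lib.P139

open MeasureTheory ProbabilityTheory
open scoped ENNReal NNReal

/-- second moment of a centred real Gaussian of variance `1/2` -/
theorem lintegral_sq_gaussianReal_half :
    ∫⁻ x, ENNReal.ofReal (x ^ 2) ∂(gaussianReal 0 (1 / 2)) = 1 / 2 := by
  have h1 : evariance (fun x : ℝ => x) (gaussianReal 0 (1 / 2))
      = ∫⁻ x, ENNReal.ofReal (x ^ 2) ∂(gaussianReal 0 (1 / 2)) := by
    rw [evariance_eq_lintegral_ofReal]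
    simp [integral_id_gaussianReal]
  have h2 : MemLp (fun x : ℝ => x) 2 (gaussianReal 0 (1 / 2)) := memLp_id_gaussianReal 2
  have h3 := h2.ofReal_variance_eq
  rw [variance_fun_id_gaussianReal] at h3
  rw [← h1, ← h3]
  rw [show (((1 / 2 : ℝ≥0) : ℝ)) = 1 / 2 by simp]
  rw [ENNReal.ofReal_div_of_pos (by norm_num)]
  simp

/-- `E |X|² = 1` -/
theorem IsStdComplexGaussian.lintegral_sq {Ω : Type*} [MeasurableSpace Ω] {P : Measure Ω}
    {X : Ω → ℂ} (h : IsStdComplexGaussian P X) :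
    ∫⁻ ω, ENNReal.ofReal (‖X ω‖ ^ 2) ∂P = 1 := by
  have hm : Measurable (fun ω => ((X ω).re, (X ω).im)) :=
    (Complex.measurable_re.comp h.1).prodMk (Complex.measurable_im.comp h.1)
  have hF : Measurable (fun p : ℝ × ℝ => ENNReal.ofReal (p.1 ^ 2) + ENNReal.ofReal (p.2 ^ 2)) := by
    fun_prop
  have e1 : ∫⁻ ω, ENNReal.ofReal (‖X ω‖ ^ 2) ∂P
      = ∫⁻ p, (ENNReal.ofReal (p.1 ^ 2) + ENNReal.ofReal (p.2 ^ 2))
          ∂(P.map (fun ω => ((X ω).re, (X ω).im))) := by
    rw [lintegral_map hF hm]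
    refine lintegral_congr (fun ω => ?_)
    rw [Complex.sq_norm, Complex.normSq_apply, ← ENNReal.ofReal_add (sq_nonneg _) (sq_nonneg _)]
    congr 1
    ring
  rw [e1, h.2, lintegral_add_left (by fun_prop)]
  rw [lintegral_prod _ (by fun_prop), lintegral_prod _ (by fun_prop)]
  simp only [lintegral_const, measure_univ, mul_one, lintegral_sq_gaussianReal_half]
  rw [ENNReal.add_halves]

end Vale.Agent.Lib.P139
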