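import Vale.Agent.Lib.P139.Defs

namespace Vale.Agent.Lib.P139

theorem one_le_jb {d : ℕ} (n : Fin d → ℤ) : 1 ≤ jb n := by
  unfold jb
  rw [Real.one_le_sqrt]
  have : 0 ≤ ∑ i, (n i : ℝ) ^ 2 := Finset.sum_nonneg fun i _ => sq_nonneg _
  linarith

/-- one-dimensional factor -/
theorem summable_factor (b : ℝ) (hb : 1 < b) :
    Summable (fun k : ℤ => (1 + (k : ℝ) ^ 2) ^ (-(b / 2))) := by
  refine Summable.of_norm_bounded_eventually (Real.summable_abs_int_rpow hb) ?_
  rw [Filter.eventually_cofinite]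
  refine (Set.finite_singleton (0 : ℤ)).subset ?_
  intro k hk
  by_contra hk0
  apply hk
  have hk0' : (k : ℝ) ≠ 0 := by exact_mod_cast hk0
  have hpos : 0 < |(k : ℝ)| := abs_pos.2 hk0'
  have h1 : |(k : ℝ)| ^ (-b) = ((k : ℝ) ^ 2) ^ (-(b / 2)) := by
    rw [← sq_abs, ← Real.rpow_natCast, ← Real.rpow_mul hpos.le]
    congr 1; push_cast; ring
  rw [h1, Real.norm_of_nonneg (by positivity)]
  apply Real.rpow_le_rpow_of_nonpos (by positivity) (by linarith) (by linarith)

/-- `∑_{n ∈ ℤ^d} ⟨n⟩^{-s} < ∞` for `s > d`. -/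
theorem summable_jb (d : ℕ) (s : ℝ) (hs : (d : ℝ) < s) :
    Summable (fun n : Fin d → ℤ => jb n ^ (-s)) := by
  rcases Nat.eq_zero_or_pos d with rfl | hd
  · exact Summable.of_finite
  have hdr : (0 : ℝ) < d := by exact_mod_cast hd
  have hb : 1 < s / d := by rwa [one_lt_div hdr]
  set f : ℤ → ℝ := fun k => (1 + (k : ℝ) ^ 2) ^ (-(s / d / 2)) with hf
  have hfs : Summable f := summable_factor _ hb
  have hf0 : ∀ k, 0 ≤ f k := fun k => by simp only [hf]; positivity
  have hpt : ∀ n : Fin d → ℤ, jb n ^ (-s) ≤ ∏ i, f (n i) := by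
    intro n
    set Q : ℝ := 1 + ∑ i, (n i : ℝ) ^ 2 with hQ
    have hQ1 : 1 ≤ Q := by
      have : 0 ≤ ∑ i, (n i : ℝ) ^ 2 := Finset.sum_nonneg fun i _ => sq_nonneg _
      linarith
    have h1 : jb n ^ (-s) = ∏ _i : Fin d, Q ^ (-(s / d / 2)) := by
      rw [Finset.prod_const, Finset.card_univ, Fintype.card_fin, ← Real.rpow_natCast,
        ← Real.rpow_mul (by linarith)]
      unfold jb
      rw [Real.sqrt_eq_rpow, ← Real.rpow_mul (by linarith)]
      congr 1
      field_simp
    rw [h1]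
    apply Finset.prod_le_prod
    · intro i _; positivity
    · intro i _
      simp only [hf]
      apply Real.rpow_le_rpow_of_nonpos (by positivity) _ (by
        have : 0 < s / d / 2 := by positivity
        linarith)
      have : (n i : ℝ) ^ 2 ≤ ∑ i, (n i : ℝ) ^ 2 :=
        Finset.single_le_sum (f := fun i => (n i : ℝ) ^ 2) (fun j _ => sq_nonneg _) (Finset.mem_univ i)
      linarith
  refine summable_of_sum_le (c := (∑' k, f k) ^ d) (fun n => ?_) (fun S => ?_)
  · have := one_le_jb n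
    positivity
  · classical
    set T : Finset ℤ := Finset.univ.biUnion fun i : Fin d => S.image (fun n => n i) with hT
    have hST : S ⊆ Fintype.piFinset fun _ : Fin d => T := by
      intro n hn
      rw [Fintype.mem_piFinset]
      intro i
      rw [hT, Finset.mem_biUnion]
      exact ⟨i, Finset.mem_univ i, Finset.mem_image_of_mem _ hn⟩
    calc ∑ n ∈ S, jb n ^ (-s) ≤ ∑ n ∈ S, ∏ i, f (n i) := Finset.sum_le_sum fun n _ => hpt n
      _ ≤ ∑ n ∈ Fintype.piFinset fun _ : Fin d => T, ∏ i, f (n i) :=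
          Finset.sum_le_sum_of_subset_of_nonneg hST
            fun n _ _ => Finset.prod_nonneg fun i _ => hf0 _
      _ = ∏ _i : Fin d, ∑ k ∈ T, f k := (Finset.prod_univ_sum (fun _ => T) (fun _ k => f k)).symm
      _ = (∑ k ∈ T, f k) ^ d := by
          rw [Finset.prod_const, Finset.card_univ, Fintype.card_fin]
      _ ≤ (∑' k, f k) ^ d := by
          apply pow_le_pow_left₀ (Finset.sum_nonneg fun k _ => hf0 k)
          exact hfs.sum_le_tsum T fun k _ => hf0 k

end Vale.Agent.Lib.P139
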