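import Vale.Agent.Lib.P139.Abstract

namespace Vale.Agent.Lib.P139

open MeasureTheory ProbabilityTheory Filter
open scoped ENNReal NNReal Topology

variable {ι Ω : Type*} [MeasurableSpace Ω] {P : Measure Ω} {g : ι → Ω → ℂ}

/-- deterministic estimate on the good event -/
theorem sum_lt_of_good (A s : ι → ℝ) (hA : ∀ i, 0 ≤ A i) (v : ι → ℂ) (F : Finset ι)
    (δ : ι → ℝ≥0∞) (e : ℝ≥0∞) (hδ : ∑' i, δ i < e)
    (hF2 : ∑' i : {x // x ∉ F}, ENNReal.ofReal (A i * ‖v i‖ ^ 2) < e) (ω : Ω)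
    (h1 : ∀ i ∈ F, ENNReal.ofReal (A i * ‖g i ω * (s i : ℂ) - v i‖ ^ 2) < δ i)
    (h2 : tailVar g (fun i => ENNReal.ofReal (A i * s i ^ 2)) F ω < e) :
    ∑' i, ENNReal.ofReal (A i * ‖g i ω * (s i : ℂ) - v i‖ ^ 2) < 5 * e := by
  have key : ∑' i, ENNReal.ofReal (A i * ‖g i ω * (s i : ℂ) - v i‖ ^ 2) =
      ∑ i ∈ F, ENNReal.ofReal (A i * ‖g i ω * (s i : ℂ) - v i‖ ^ 2) +
        ∑' i : {x // x ∉ F}, ENNReal.ofReal (A i * ‖g i ω * (s i : ℂ) - v i‖ ^ 2) :=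
    (ENNReal.sum_add_tsum_compl F (fun i => ENNReal.ofReal
      (A i * ‖g i ω * (s i : ℂ) - v i‖ ^ 2))).symm
  rw [key]
  have a1 : ∑ i ∈ F, ENNReal.ofReal (A i * ‖g i ω * (s i : ℂ) - v i‖ ^ 2) < e :=
    lt_of_le_of_lt ((Finset.sum_le_sum fun i hi => (h1 i hi).le).trans (ENNReal.sum_le_tsum F)) hδ
  have a2 : ∑' i : {x // x ∉ F}, ENNReal.ofReal (A i * ‖g i ω * (s i : ℂ) - v i‖ ^ 2) ≤
      2 * tailVar g (fun i => ENNReal.ofReal (A i * s i ^ 2)) F ω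
        + 2 * ∑' i : {x // x ∉ F}, ENNReal.ofReal (A i * ‖v i‖ ^ 2) := by
    unfold tailVar
    rw [← ENNReal.tsum_mul_left, ← ENNReal.tsum_mul_left, ← ENNReal.tsum_add]
    exact ENNReal.tsum_le_tsum fun i => dist_le (A i) (s i) (hA i) (v i) (g i ω)
  have a3 : 2 * tailVar g (fun i => ENNReal.ofReal (A i * s i ^ 2)) F ω
        + 2 * ∑' i : {x // x ∉ F}, ENNReal.ofReal (A i * ‖v i‖ ^ 2) < (e + e) + (e + e) := by
    rw [two_mul, two_mul]
    exact ENNReal.add_lt_add (ENNReal.add_lt_add h2 h2) (ENNReal.add_lt_add hF2 hF2)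
  have a4 : (5 : ℝ≥0∞) * e = e + ((e + e) + (e + e)) := by ring
  rw [a4]
  exact ENNReal.add_lt_add a1 (lt_of_le_of_lt a2 a3)

/-- **Full support.** Independent complex random variables `g i`, each charging every nonempty
open set and with `E |g i|² ≤ 1`; weights `A i ≥ 0` and scales `s i ≠ 0` with
`∑ A i (s i)² < ∞`.  Then the random sequence `(g i s i)` is, with positive probability, within
any positive distance of any given sequence `v` of finite weighted norm. -/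
theorem abstract_support [Countable ι] [IsProbabilityMeasure P] (hm : ∀ i, Measurable (g i))
    (hind : iIndepFun g P)
    (hopen : ∀ i (U : Set ℂ), IsOpen U → U.Nonempty → 0 < P (g i ⁻¹' U))
    (hsq : ∀ i, ∫⁻ ω, ENNReal.ofReal (‖g i ω‖ ^ 2) ∂P ≤ 1)
    (A s : ι → ℝ) (hA : ∀ i, 0 ≤ A i) (hs : ∀ i, s i ≠ 0)
    (hsum : ∑' i, ENNReal.ofReal (A i * s i ^ 2) ≠ ⊤)
    (v : ι → ℂ) (hv : ∑' i, ENNReal.ofReal (A i * ‖v i‖ ^ 2) ≠ ⊤)
    (ε : ℝ≥0∞) (hε : 0 < ε) :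
    0 < P {ω | ∑' i, ENNReal.ofReal (A i * ‖g i ω * (s i : ℂ) - v i‖ ^ 2) < ε} := by
  obtain ⟨e, he0, het, h5⟩ : ∃ e : ℝ≥0∞, e ≠ 0 ∧ e ≠ ⊤ ∧ 5 * e ≤ ε := by
    refine ⟨min ε 1 / 5, ?_, ?_, ?_⟩
    · exact (ENNReal.div_pos (lt_min hε one_pos).ne' (by norm_num)).ne'
    · exact (ENNReal.div_lt_top (ne_top_of_le_ne_top ENNReal.one_ne_top (min_le_right _ _))
        (by norm_num)).ne
    · rw [ENNReal.mul_div_cancel (by norm_num) (by norm_num)]
      exact min_le_left _ _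
  obtain ⟨δ, δpos, hδ⟩ := ENNReal.exists_pos_sum_of_countable' he0 ι
  have e1 := (tendsto_order.1 (ENNReal.tendsto_tsum_compl_atTop_zero hsum)).2 e
    (pos_iff_ne_zero.2 he0)
  have e2 := (tendsto_order.1 (ENNReal.tendsto_tsum_compl_atTop_zero hv)).2 e
    (pos_iff_ne_zero.2 he0)
  obtain ⟨F, hF1, hF2⟩ := (e1.and e2).exists
  set U : ι → Set ℂ := fun i => {z | ENNReal.ofReal (A i * ‖z * (s i : ℂ) - v i‖ ^ 2) < δ i}
    with hUdef
  have hU : ∀ i, IsOpen (U i) := by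
    intro i
    refine isOpen_lt (ENNReal.continuous_ofReal.comp ?_) continuous_const
    fun_prop
  have hne : ∀ i, (U i).Nonempty := by
    intro i
    refine ⟨v i / (s i : ℂ), ?_⟩
    have hsi : (s i : ℂ) ≠ 0 := by exact_mod_cast hs i
    show ENNReal.ofReal (A i * ‖v i / (s i : ℂ) * (s i : ℂ) - v i‖ ^ 2) < δ i
    rw [div_mul_cancel₀ _ hsi]
    simpa using δpos i
  have p1 := fin_pos hind hopen F U hU hne
  have p2 := tail_pos hm hsq (fun i => ENNReal.ofReal (A i * s i ^ 2)) F e he0 het hF1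
  have p3 := inter_eq hm hind F U (fun i => (hU i).measurableSet)
    (fun i => ENNReal.ofReal (A i * s i ^ 2)) e
  have p4 : 0 < P ((⋂ i ∈ F, g i ⁻¹' U i) ∩
      {ω | tailVar g (fun i => ENNReal.ofReal (A i * s i ^ 2)) F ω < e}) := by
    rw [p3]
    exact ENNReal.mul_pos p1.ne' p2.ne'
  refine lt_of_lt_of_le p4 (measure_mono ?_)
  rintro ω ⟨hω1, hω2⟩
  refine lt_of_lt_of_le (sum_lt_of_good A s hA v F δ e hδ hF2 ω ?_ hω2) h5
  intro i hi
  have := Set.mem_iInter₂.1 hω1 i hi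
  exact this

/-- almost sure finiteness of the weighted norm -/
theorem abstract_finite [Countable ι] (hm : ∀ i, Measurable (g i))
    (hsq : ∀ i, ∫⁻ ω, ENNReal.ofReal (‖g i ω‖ ^ 2) ∂P ≤ 1)
    (T : ι → ℝ≥0∞) (hsum : ∑' i, T i ≠ ⊤) :
    ∀ᵐ ω ∂P, ∑' i, T i * ENNReal.ofReal (‖g i ω‖ ^ 2) < ⊤ := by
  have hmeas : Measurable (fun ω => ∑' i, T i * ENNReal.ofReal (‖g i ω‖ ^ 2)) :=
    measurable_tsum_aux _ fun i => (measurable_term (T i)).comp (hm i)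
  refine ae_lt_top hmeas ?_
  rw [lintegral_tsum (f := fun (i : ι) ω => T i * ENNReal.ofReal (‖g i ω‖ ^ 2))
    (fun i => ((measurable_term (T i)).comp (hm i)).aemeasurable)]
  refine ne_top_of_le_ne_top hsum (ENNReal.tsum_le_tsum fun i => ?_)
  have hmeas : Measurable (fun ω => ENNReal.ofReal (‖g i ω‖ ^ 2)) := by
    have := (measurable_term 1).comp (hm i)
    simpa [Function.comp_def] using this
  rw [lintegral_const_mul _ hmeas]
  calc T i * ∫⁻ ω, ENNReal.ofReal (‖g i ω‖ ^ 2) ∂P ≤ T i * 1 := by gcongr; exact hsq i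
    _ = T i := mul_one _

end Vale.Agent.Lib.P139
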